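import Mathlib
import Vale.Agent.Helper13.SwitchChain

/-!
# Switch connectivity of the realizations of a degree vector (P335, general graphs)

Any two simple graphs on `Fin n` with the same degree at every vertex are joined by a
finite sequence of switches (`Vale.Agent.Helper13.Switch.IsSwitch`).

Proof: in-place induction over a set `S` of processed vertices on which the two graphs
already agree.  For an unprocessed vertex `v`, if `w ∈ N_G(v) \ N_G'(v)` and
`w' ∈ N_G'(v) \ N_G(v)`, then in whichever of the two graphs the outgoing neighbour has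
restricted degree (neighbours outside `S`) at most that of the incoming one there is a
switch on `v, w, w', x` with `x ∉ S` that exchanges `w` and `w'` at `v`; it does not
touch `S` and lowers `|N_G(v) \ N_G'(v)|` by one.
-/

namespace Vale.Agent.Helper1.SwitchConn

open Finset
open Vale.Agent.Helper13.Switch
open Classical

variable {n : ℕ}

/-- reachability by switches -/
abbrev Reach (G G' : SimpleGraph (Fin n)) : Prop := Relation.ReflTransGen IsSwitch G G'

lemma isSwitch_symm {G G' : SimpleGraph (Fin n)} (h : IsSwitch G G') : IsSwitch G' G := by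
  obtain ⟨a, b, c, d, hab, hac, had, hbc, hbd, hcd, hal, rfl⟩ := h
  obtain ⟨h1, h2⟩ := switch_back hal hab hac had hbc hbd hcd
  exact ⟨a, c, b, d, hac, hab, had, hbc.symm, hcd, hbd, h1, h2.symm⟩

lemma reach_symm {G G' : SimpleGraph (Fin n)} (h : Reach G G') : Reach G' G := by
  induction h with
  | refl => exact Relation.ReflTransGen.refl
  | tail _ hbc ih => exact Relation.ReflTransGen.head (isSwitch_symm hbc) ih

lemma isSwitch_degree {G G' : SimpleGraph (Fin n)} (h : IsSwitch G G') (x : Fin n) :
    G'.degree x = G.degree x := by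
  obtain ⟨a, b, c, d, hab, hac, had, hbc, hbd, hcd, hal, rfl⟩ := h
  exact degree_switch hal hab hac had hbc hbd hcd x

lemma reach_degree {G G' : SimpleGraph (Fin n)} (h : Reach G G') (x : Fin n) :
    G'.degree x = G.degree x := by
  induction h with
  | refl => rfl
  | tail _ hbc ih => rw [isSwitch_degree hbc, ih]

/-- the two graphs have the same edges at every vertex of `S` -/
def AgreeOn (S : Finset (Fin n)) (G G' : SimpleGraph (Fin n)) : Prop :=
  ∀ u ∈ S, ∀ y, G.Adj u y ↔ G'.Adj u y

/-- a switch does not change the edges at a vertex outside the four switched vertices -/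
lemma switchGraph_adj_of_ne (G : SimpleGraph (Fin n)) {a b c d u : Fin n} (hua : u ≠ a)
    (hub : u ≠ b) (huc : u ≠ c) (hud : u ≠ d) (y : Fin n) :
    (switchGraph G a b c d).Adj u y ↔ G.Adj u y := by
  rw [switchGraph_adj]
  constructor
  · rintro (⟨h, -, -⟩ | ⟨h, -⟩)
    · exact h
    · rcases h with (⟨h, -⟩ | ⟨h, -⟩) | (⟨h, -⟩ | ⟨h, -⟩)
      · exact absurd h hua
      · exact absurd h huc
      · exact absurd h hub
      · exact absurd h hud
  · intro h
    left
    refine ⟨h, ?_, ?_⟩
    · rintro (⟨h', -⟩ | ⟨h', -⟩)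
      · exact hua h'
      · exact hub h'
    · rintro (⟨h', -⟩ | ⟨h', -⟩)
      · exact huc h'
      · exact hud h'

/-- the edges at the first vertex after a switch -/
lemma switchGraph_adj_first {G : SimpleGraph (Fin n)} {a b c d : Fin n} (h : Allowed G a b c d)
    (hab : a ≠ b) (hac : a ≠ c) (had : a ≠ d) (y : Fin n) :
    (switchGraph G a b c d).Adj a y ↔ y = c ∨ (y ≠ b ∧ G.Adj a y) := by
  rw [switchGraph_adj]
  constructor
  · rintro (⟨hy, hn1, hn2⟩ | ⟨hy, hne⟩)
    · right
      exact ⟨fun hyb => hn1 (Or.inl ⟨rfl, hyb⟩), hy⟩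
    · rcases hy with (⟨-, hh⟩ | ⟨hh, -⟩) | (⟨hh, -⟩ | ⟨hh, -⟩)
      · left; exact hh
      · exact absurd hh hac
      · exact absurd hh hab
      · exact absurd hh had
  · rintro (rfl | ⟨hyb, hy⟩)
    · right; exact ⟨Or.inl (Or.inl ⟨rfl, rfl⟩), hac⟩
    · left
      refine ⟨hy, ?_, ?_⟩
      · rintro (⟨-, hh⟩ | ⟨hh, -⟩)
        · exact hyb hh
        · exact hab hh
      · rintro (⟨hh, -⟩ | ⟨hh, -⟩)
        · exact hac hh
        · exact had hh

/-- graphs with equal degrees that agree at `S` have equal restricted degrees -/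
lemma rdeg_eq {S : Finset (Fin n)} {G G' : SimpleGraph (Fin n)} (hag : AgreeOn S G G')
    (hdeg : ∀ i, G.degree i = G'.degree i) (u : Fin n) :
    (G.neighborFinset u \ S).card = (G'.neighborFinset u \ S).card := by
  have h1 := Finset.card_sdiff_add_card_inter (G.neighborFinset u) S
  have h2 := Finset.card_sdiff_add_card_inter (G'.neighborFinset u) S
  have h3 : G.neighborFinset u ∩ S = G'.neighborFinset u ∩ S := by
    ext y
    simp only [Finset.mem_inter, SimpleGraph.mem_neighborFinset]
    constructor
    · rintro ⟨hy, hyS⟩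
      exact ⟨((hag y hyS u).mp hy.symm).symm, hyS⟩
    · rintro ⟨hy, hyS⟩
      exact ⟨((hag y hyS u).mpr hy.symm).symm, hyS⟩
  have h4 : (G.neighborFinset u).card = (G'.neighborFinset u).card := by
    rw [SimpleGraph.card_neighborFinset_eq_degree, SimpleGraph.card_neighborFinset_eq_degree]
    exact hdeg u
  rw [h3] at h1
  omega

/-- the counting step: a partner `x` outside `S` for the switch exchanging `w`, `w'` at `v` -/
lemma exists_switch_partner (S : Finset (Fin n)) (G : SimpleGraph (Fin n)) {v w w' : Fin n}
    (hvS : v ∉ S) (hwS : w ∉ S) (hw'S : w' ∉ S) (hvw' : v ≠ w') (h1 : G.Adj v w)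
    (h2 : ¬ G.Adj v w')
    (hle : (G.neighborFinset w \ S).card ≤ (G.neighborFinset w' \ S).card) :
    ∃ x, x ∉ S ∧ x ≠ v ∧ x ≠ w ∧ x ≠ w' ∧ G.Adj w' x ∧ ¬ G.Adj w x := by
  by_contra hcon
  push Not at hcon
  set A := G.neighborFinset w \ S with hA
  set B := G.neighborFinset w' \ S with hB
  have hsub : B.erase w ⊆ (A.erase w').erase v := by
    intro x hx
    rw [Finset.mem_erase, hB, Finset.mem_sdiff, SimpleGraph.mem_neighborFinset] at hx
    obtain ⟨hxw, hxadj, hxS⟩ := hx
    have hxw' : x ≠ w' := (G.ne_of_adj hxadj).symm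
    have hxv : x ≠ v := by
      rintro rfl
      exact h2 hxadj.symm
    have := hcon x hxS hxv hxw hxw' hxadj
    rw [Finset.mem_erase, Finset.mem_erase, hA, Finset.mem_sdiff, SimpleGraph.mem_neighborFinset]
    exact ⟨hxv, hxw', this, hxS⟩
  have hvA : v ∈ A.erase w' := by
    rw [Finset.mem_erase, hA, Finset.mem_sdiff, SimpleGraph.mem_neighborFinset]
    exact ⟨hvw', h1.symm, hvS⟩
  have hc1 := Finset.card_le_card hsub
  have hc2 := Finset.card_erase_of_mem hvA
  have hc3 : 0 < (A.erase w').card := Finset.card_pos.mpr ⟨v, hvA⟩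
  by_cases hww' : G.Adj w w'
  · have hw'A : w' ∈ A := by
      rw [hA, Finset.mem_sdiff, SimpleGraph.mem_neighborFinset]; exact ⟨hww', hw'S⟩
    have hwB : w ∈ B := by
      rw [hB, Finset.mem_sdiff, SimpleGraph.mem_neighborFinset]; exact ⟨hww'.symm, hwS⟩
    have hc4 := Finset.card_erase_of_mem hw'A
    have hc5 := Finset.card_erase_of_mem hwB
    have hc6 : 0 < B.card := Finset.card_pos.mpr ⟨w, hwB⟩
    omega
  · have hw'A : w' ∉ A := by
      rw [hA, Finset.mem_sdiff, SimpleGraph.mem_neighborFinset]; exact fun h => hww' h.1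
    have hwB : w ∉ B := by
      rw [hB, Finset.mem_sdiff, SimpleGraph.mem_neighborFinset]; exact fun h => hww' h.1.symm
    rw [Finset.erase_eq_of_notMem hw'A] at hc2 hc3 hc1
    rw [Finset.erase_eq_of_notMem hwB] at hc1
    omega

/-- make the two graphs agree at one more vertex -/
lemma fix_vertex (S : Finset (Fin n)) (v : Fin n) (hv : v ∉ S) :
    ∀ (m : ℕ) (G G' : SimpleGraph (Fin n)), (∀ i, G.degree i = G'.degree i) → AgreeOn S G G' →
      (G.neighborFinset v \ G'.neighborFinset v).card = m →
      ∃ G1 G1', Reach G G1 ∧ Reach G' G1' ∧ AgreeOn (insert v S) G1 G1' := by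
  intro m
  induction m with
  | zero =>
    intro G G' hdeg hag hm
    refine ⟨G, G', Relation.ReflTransGen.refl, Relation.ReflTransGen.refl, ?_⟩
    have hsub : G.neighborFinset v ⊆ G'.neighborFinset v := by
      rw [← Finset.sdiff_eq_empty_iff_subset]
      exact Finset.card_eq_zero.mp hm
    have hcard : (G'.neighborFinset v).card ≤ (G.neighborFinset v).card := by
      rw [SimpleGraph.card_neighborFinset_eq_degree, SimpleGraph.card_neighborFinset_eq_degree,
        hdeg v]
    have heq := Finset.eq_of_subset_of_card_le hsub hcard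
    intro u hu y
    rcases Finset.mem_insert.mp hu with rfl | huS
    · rw [← SimpleGraph.mem_neighborFinset, ← SimpleGraph.mem_neighborFinset, heq]
    · exact hag u huS y
  | succ m ih =>
    intro G G' hdeg hag hm
    have hcardN : (G.neighborFinset v).card = (G'.neighborFinset v).card := by
      rw [SimpleGraph.card_neighborFinset_eq_degree, SimpleGraph.card_neighborFinset_eq_degree,
        hdeg v]
    have hne : (G.neighborFinset v \ G'.neighborFinset v).Nonempty := by
      rw [← Finset.card_pos, hm]; omega
    have hne' : (G'.neighborFinset v \ G.neighborFinset v).Nonempty := by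
      rw [← Finset.card_pos, ← Finset.card_sdiff_comm hcardN, hm]; omega
    obtain ⟨w, hw⟩ := hne
    obtain ⟨w', hw'⟩ := hne'
    rw [Finset.mem_sdiff, SimpleGraph.mem_neighborFinset, SimpleGraph.mem_neighborFinset] at hw hw'
    obtain ⟨hGvw, hG'vw⟩ := hw
    obtain ⟨hG'vw', hGvw'⟩ := hw'
    have hwS : w ∉ S := fun h => hG'vw ((hag w h v).mp hGvw.symm).symm
    have hw'S : w' ∉ S := fun h => hGvw' ((hag w' h v).mpr hG'vw'.symm).symm
    have hvw : v ≠ w := G.ne_of_adj hGvw
    have hvw' : v ≠ w' := G'.ne_of_adj hG'vw'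
    have hww' : w ≠ w' := by
      rintro rfl
      exact hGvw' hGvw
    by_cases hle : (G.neighborFinset w \ S).card ≤ (G.neighborFinset w' \ S).card
    · -- switch in `G`
      obtain ⟨x, hxS, hxv, hxw, hxw', hadj, hnadj⟩ :=
        exists_switch_partner S G hv hwS hw'S hvw' hGvw hGvw' hle
      have hal : Allowed G v w w' x := ⟨hGvw, hadj, hGvw', hnadj⟩
      set G2 := switchGraph G v w w' x with hG2
      have hsw : IsSwitch G G2 :=
        ⟨v, w, w', x, hvw, hvw', hxv.symm, hww', hxw.symm, hxw'.symm, hal, rfl⟩
      have hdeg2 : ∀ i, G2.degree i = G'.degree i := fun i => by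
        rw [isSwitch_degree hsw, hdeg]
      have hag2 : AgreeOn S G2 G' := by
        intro u hu y
        have huv : u ≠ v := fun h => hv (h ▸ hu)
        have huw : u ≠ w := fun h => hwS (h ▸ hu)
        have huw' : u ≠ w' := fun h => hw'S (h ▸ hu)
        have hux : u ≠ x := fun h => hxS (h ▸ hu)
        rw [hG2, switchGraph_adj_of_ne G huv huw huw' hux]
        exact hag u hu y
      have hm2 : (G2.neighborFinset v \ G'.neighborFinset v).card = m := by
        have hset : G2.neighborFinset v \ G'.neighborFinset v
            = (G.neighborFinset v \ G'.neighborFinset v).erase w := by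
          ext y
          rw [Finset.mem_sdiff, SimpleGraph.mem_neighborFinset, SimpleGraph.mem_neighborFinset,
            Finset.mem_erase, Finset.mem_sdiff, SimpleGraph.mem_neighborFinset,
            SimpleGraph.mem_neighborFinset, hG2,
            switchGraph_adj_first hal hvw hvw' hxv.symm]
          constructor
          · rintro ⟨(rfl | ⟨hyw, hy⟩), hny⟩
            · exact absurd hG'vw' hny
            · exact ⟨hyw, hy, hny⟩
          · rintro ⟨hyw, hy, hny⟩
            exact ⟨Or.inr ⟨hyw, hy⟩, hny⟩
        have hwmem : w ∈ G.neighborFinset v \ G'.neighborFinset v := by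
          rw [Finset.mem_sdiff, SimpleGraph.mem_neighborFinset, SimpleGraph.mem_neighborFinset]
          exact ⟨hGvw, hG'vw⟩
        rw [hset, Finset.card_erase_of_mem hwmem, hm]
        rfl
      obtain ⟨G1, G1', hr1, hr2, hag1⟩ := ih G2 G' hdeg2 hag2 hm2
      exact ⟨G1, G1', Relation.ReflTransGen.head hsw hr1, hr2, hag1⟩
    · -- switch in `G'`
      have hle' : (G'.neighborFinset w' \ S).card ≤ (G'.neighborFinset w \ S).card := by
        rw [← rdeg_eq hag hdeg w', ← rdeg_eq hag hdeg w]
        omega
      obtain ⟨x, hxS, hxv, hxw', hxw, hadj, hnadj⟩ :=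
        exists_switch_partner S G' hv hw'S hwS hvw hG'vw' hG'vw hle'
      have hal : Allowed G' v w' w x := ⟨hG'vw', hadj, hG'vw, hnadj⟩
      set G2 := switchGraph G' v w' w x with hG2
      have hsw : IsSwitch G' G2 :=
        ⟨v, w', w, x, hvw', hvw, hxv.symm, hww'.symm, hxw'.symm, hxw.symm, hal, rfl⟩
      have hdeg2 : ∀ i, G.degree i = G2.degree i := fun i => by
        rw [isSwitch_degree hsw, hdeg]
      have hag2 : AgreeOn S G G2 := by
        intro u hu y
        have huv : u ≠ v := fun h => hv (h ▸ hu)
        have huw : u ≠ w := fun h => hwS (h ▸ hu)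
        have huw' : u ≠ w' := fun h => hw'S (h ▸ hu)
        have hux : u ≠ x := fun h => hxS (h ▸ hu)
        rw [hG2, switchGraph_adj_of_ne G' huv huw' huw hux]
        exact hag u hu y
      have hm2 : (G.neighborFinset v \ G2.neighborFinset v).card = m := by
        have hset : G.neighborFinset v \ G2.neighborFinset v
            = (G.neighborFinset v \ G'.neighborFinset v).erase w := by
          ext y
          rw [Finset.mem_sdiff, SimpleGraph.mem_neighborFinset, SimpleGraph.mem_neighborFinset,
            Finset.mem_erase, Finset.mem_sdiff, SimpleGraph.mem_neighborFinset,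
            SimpleGraph.mem_neighborFinset, hG2,
            switchGraph_adj_first hal hvw' hvw hxv.symm]
          constructor
          · rintro ⟨hy, hny⟩
            refine ⟨fun hyw => hny (Or.inl hyw), hy, fun hy' => hny (Or.inr ⟨?_, hy'⟩)⟩
            rintro rfl
            exact hGvw' hy
          · rintro ⟨hyw, hy, hny⟩
            refine ⟨hy, ?_⟩
            rintro (hyw' | ⟨-, hy'⟩)
            · exact hyw hyw'
            · exact hny hy'
        have hwmem : w ∈ G.neighborFinset v \ G'.neighborFinset v := by
          rw [Finset.mem_sdiff, SimpleGraph.mem_neighborFinset, SimpleGraph.mem_neighborFinset]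
          exact ⟨hGvw, hG'vw⟩
        rw [hset, Finset.card_erase_of_mem hwmem, hm]
        rfl
      obtain ⟨G1, G1', hr1, hr2, hag1⟩ := ih G G2 hdeg2 hag2 hm2
      exact ⟨G1, G1', hr1, Relation.ReflTransGen.head hsw hr2, hag1⟩

/-- make the two graphs agree everywhere -/
lemma fix_all : ∀ (k : ℕ) (S : Finset (Fin n)) (G G' : SimpleGraph (Fin n)),
    (univ \ S).card = k → (∀ i, G.degree i = G'.degree i) → AgreeOn S G G' →
    ∃ G1, Reach G G1 ∧ Reach G' G1 := by
  intro k
  induction k with
  | zero =>
    intro S G G' hk hdeg hag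
    have hS : S = univ := by
      have := Finset.card_eq_zero.mp hk
      rw [Finset.sdiff_eq_empty_iff_subset] at this
      exact Finset.eq_univ_of_forall fun x => this (Finset.mem_univ x)
    have hGG : G = G' := by
      ext u y
      exact hag u (hS ▸ Finset.mem_univ u) y
    exact ⟨G, Relation.ReflTransGen.refl, hGG ▸ Relation.ReflTransGen.refl⟩
  | succ k ih =>
    intro S G G' hk hdeg hag
    have hne : (univ \ S).Nonempty := by
      rw [← Finset.card_pos, hk]; omega
    obtain ⟨v, hv⟩ := hne
    have hvS : v ∉ S := (Finset.mem_sdiff.mp hv).2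
    obtain ⟨G1, G1', hr1, hr2, hag1⟩ := fix_vertex S v hvS _ G G' hdeg hag rfl
    have hdeg1 : ∀ i, G1.degree i = G1'.degree i := fun i => by
      rw [reach_degree hr1, reach_degree hr2, hdeg]
    have hk1 : (univ \ insert v S).card = k := by
      have : univ \ insert v S = (univ \ S).erase v := by
        ext y
        simp only [Finset.mem_sdiff, Finset.mem_univ, true_and, Finset.mem_insert,
          Finset.mem_erase, not_or]
      rw [this, Finset.card_erase_of_mem hv, hk]
      rfl
    obtain ⟨G2, hr3, hr4⟩ := ih (insert v S) G1 G1' hk1 hdeg1 hag1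
    exact ⟨G2, hr1.trans hr3, hr2.trans hr4⟩

/-- **Switch connectivity.** Two simple graphs on `Fin n` with the same degree at every
vertex are joined by a finite sequence of switches. -/
theorem switch_connected (G G' : SimpleGraph (Fin n)) (h : ∀ i, G.degree i = G'.degree i) :
    Relation.ReflTransGen IsSwitch G G' := by
  obtain ⟨G1, hr1, hr2⟩ := fix_all _ ∅ G G' rfl h (fun u hu => absurd hu (Finset.notMem_empty u))
  exact hr1.trans (reach_symm hr2)

/-- version for realizations of a degree vector -/
theorem realization_connected (d : Fin n → ℕ) (G G' : Realization n d) :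
    Relation.ReflTransGen IsSwitch G.1 G'.1 :=
  switch_connected G.1 G'.1 fun i => by rw [G.2 i, G'.2 i]

end Vale.Agent.Helper1.SwitchConn
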