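import Vale.Agent.Lead.KTVLiteralDefs

/-!
Uniqueness of the choice `(S, F, F')` behind a moving step of the literal switch chain of
problem P335: if the step from `G` with the ordered pair `(F₁, F₁')` of perfect matchings of
`S₁` moves and agrees with the step with `(F₂, F₂')` on `S₂`, then the two choices coincide.
-/

namespace Vale.Agent.Helper1.KTVLiteralUnique

open Classical
open Vale.Agent.Lead.KTVLiteral

variable {n : ℕ}

/-- The vertex set of a perfect matching is the set of vertices covered by its edges. -/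
theorem pm_mem_iff {S : Finset (Fin n)} {F : Finset (Sym2 (Fin n))} (h : PM S F) (v : Fin n) :
    v ∈ S ↔ ∃ e ∈ F, v ∈ e := by
  constructor
  · intro hv
    obtain ⟨e, ⟨he, hve⟩, -⟩ := h.2 v hv
    exact ⟨e, he, hve⟩
  · rintro ⟨e, he, hve⟩
    exact (h.1 e he).2 v hve

/-- If the step does not stay put, its condition holds. -/
theorem cond_of_step_ne {F F' : Finset (Sym2 (Fin n))} (G : SimpleGraph (Fin n))
    (hmove : step G F F' ≠ G) :
    (∀ e ∈ F, e ∈ G.edgeSet) ∧ (∀ e ∈ F', e ∉ G.edgeSet) := by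
  by_contra hc
  apply hmove
  unfold step
  rw [if_neg hc]

/-- The edge set after a step whose condition holds. -/
theorem step_edgeSet {F F' : Finset (Sym2 (Fin n))} (G : SimpleGraph (Fin n))
    (hF' : ∀ e ∈ F', ¬ e.IsDiag)
    (hc : (∀ e ∈ F, e ∈ G.edgeSet) ∧ (∀ e ∈ F', e ∉ G.edgeSet)) :
    (step G F F').edgeSet =
      (G.edgeSet \ (F : Set (Sym2 (Fin n)))) ∪ (F' : Set (Sym2 (Fin n))) := by
  unfold step
  rw [if_pos hc, SimpleGraph.edgeSet_fromEdgeSet]
  ext e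
  simp only [Set.mem_sdiff, Set.mem_union, Finset.mem_coe]
  constructor
  · rintro ⟨h, -⟩
    exact h
  · intro h
    refine ⟨h, ?_⟩
    rcases h with ⟨he, -⟩ | he
    · exact G.not_isDiag_of_mem_edgeSet he
    · exact hF' e he

/-- The removed matching is determined by the graph before and after a step. -/
theorem removed_eq {F₁ F₁' F₂ F₂' : Finset (Sym2 (Fin n))} (G : SimpleGraph (Fin n))
    (hc₁ : (∀ e ∈ F₁, e ∈ G.edgeSet) ∧ (∀ e ∈ F₁', e ∉ G.edgeSet))
    (h : (G.edgeSet \ (F₁ : Set (Sym2 (Fin n)))) ∪ (F₁' : Set (Sym2 (Fin n))) =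
      (G.edgeSet \ (F₂ : Set (Sym2 (Fin n)))) ∪ (F₂' : Set (Sym2 (Fin n)))) :
    F₁ ⊆ F₂ ∧ F₁' ⊆ F₂' := by
  have key : ∀ e, ((e ∈ G.edgeSet ∧ e ∉ F₁) ∨ e ∈ F₁') ↔ ((e ∈ G.edgeSet ∧ e ∉ F₂) ∨ e ∈ F₂') := by
    intro e
    have := Set.ext_iff.mp h e
    simpa only [Set.mem_sdiff, Set.mem_union, Finset.mem_coe] using this
  constructor
  · intro e he
    by_contra hne
    have h1 : e ∈ G.edgeSet := hc₁.1 e he
    rcases (key e).mpr (Or.inl ⟨h1, hne⟩) with ⟨-, h2⟩ | h2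
    · exact h2 he
    · exact hc₁.2 e h2 h1
  · intro e he
    rcases (key e).mp (Or.inr he) with ⟨h1, -⟩ | h2
    · exact absurd h1 (hc₁.2 e he)
    · exact h2

/-- A moving step determines the chosen 4-set and the ordered pair of perfect matchings. -/
theorem step_unique {S₁ S₂ : Finset (Fin n)} {F₁ F₁' F₂ F₂' : Finset (Sym2 (Fin n))}
    (h₁ : PM S₁ F₁) (h₁' : PM S₁ F₁') (h₂ : PM S₂ F₂) (h₂' : PM S₂ F₂')
    (G : SimpleGraph (Fin n)) (hmove : step G F₁ F₁' ≠ G)
    (heq : step G F₁ F₁' = step G F₂ F₂') :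
    S₁ = S₂ ∧ F₁ = F₂ ∧ F₁' = F₂' := by
  have hc₁ := cond_of_step_ne G hmove
  have hc₂ := cond_of_step_ne G (heq ▸ hmove)
  have e₁ := step_edgeSet G (fun e he => (h₁'.1 e he).1) hc₁
  have e₂ := step_edgeSet G (fun e he => (h₂'.1 e he).1) hc₂
  rw [heq, e₂] at e₁
  have a := removed_eq G hc₁ e₁.symm
  have b := removed_eq G hc₂ e₁
  have hF : F₁ = F₂ := Finset.Subset.antisymm a.1 b.1
  have hF' : F₁' = F₂' := Finset.Subset.antisymm a.2 b.2
  refine ⟨?_, hF, hF'⟩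
  ext v
  rw [pm_mem_iff h₁ v, pm_mem_iff h₂ v, hF]

end Vale.Agent.Helper1.KTVLiteralUnique
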